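import Vale.Agent.P331.H109.Tool

/-!
# Row STEP (note 19883 (4)): the probability that some context fails at one level
-/

set_option autoImplicit false
set_option linter.unusedSectionVars false
set_option linter.unusedVariables false

namespace Vale.Agent.P331.H109

open Finset Vale.Agent.P331.H489 Vale.Agent.P331.H316
open scoped Classical

theorem BB_mono {E : Type} [Fintype E] {D : Finset E → Prop} {g n t e lam zet : ℝ} {kap : ℕ}
    {R I A B : Finset E} (hg : 0 ≤ g) (hg1 : g ≤ 1) (hAB : A ⊆ B)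
    (h : BB D g n t e lam zet kap R I A) : BB D g n t e lam zet kap R I B := by
  unfold BB at h ⊢
  refine h.trans (thin_mono hg hg1 fun H _ => ind_mono ?_)
  rintro ⟨Y, hY, h1, h2⟩
  exact ⟨Y, hY.trans hAB, h1, h2⟩

/-- a context which fails at level `j` -/
def Aj {E : Type} [Fintype E] (D : Finset E → Prop) (P : Par) (j : ℕ) (V R I : Finset E) : Prop :=
  ∃ X ⊆ V, Bad D P R I j X

/-- the selected context -/
noncomputable def Kf {E : Type} [Fintype E] (D : Finset E → Prop) (P : Par) (j : ℕ)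
    (V R I : Finset E) : Finset E :=
  if h : Aj D P j V R I ∧ Disjoint V I then Classical.choose h.1 else ∅

theorem Kf_spec {E : Type} [Fintype E] {D : Finset E → Prop} {P : Par} {j : ℕ}
    {V R I : Finset E} (h : Aj D P j V R I) (hd : Disjoint V I) :
    Kf D P j V R I ⊆ V ∧ Bad D P R I j (Kf D P j V R I) := by
  unfold Kf
  rw [dif_pos ⟨h, hd⟩]
  exact Classical.choose_spec h

theorem Kf_sub {E : Type} [Fintype E] (D : Finset E → Prop) (P : Par) (j : ℕ)
    (V R I : Finset E) : Kf D P j V R I ⊆ V := by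
  by_cases h : Aj D P j V R I ∧ Disjoint V I
  · exact (Kf_spec h.1 h.2).1
  · unfold Kf
    rw [dif_neg h]
    exact empty_subset _

theorem Kf_disj {E : Type} [Fintype E] (D : Finset E → Prop) (P : Par) (j : ℕ)
    (V R I : Finset E) : Disjoint (Kf D P j V R I) I := by
  by_cases h : Aj D P j V R I ∧ Disjoint V I
  · exact disjoint_of_subset_left (Kf_spec h.1 h.2).1 h.2
  · unfold Kf
    rw [dif_neg h]
    exact disjoint_empty_left _

theorem rowSTEP (hSPLIT : RowSPLIT) (hJST : RowJST) (hMK : RowMK) (hQJ : RowQJ)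
    (hDROP : RowDROP) : RowSTEP := by
  intro p s₁ s₂ B β lam' zet' P hp hs₁ hs₂ hsum hg hg4 hn hn4 hgn ht0 ht1 hβ hlam' hzet' hB hpg
    E _ D hD j hlam1 hlam0 hzet1 hzet0 hdl heps hcore
  have hg1 : P.g ≤ 1 := by linarith
  have hn1 : P.n ≤ 1 := by linarith
  have hK := Kf_sub D P j
  have hst := fun V R I => hDROP E D hD P R I j (Kf D P j V R I) ht0 ht1 hg.le hg1 hn.le hn1 hdl
    (Kf_disj D P j V R I)
  choose st hst1 hst2 using hst
  have hcoreB := hcore (Kf D P j) st hK fun V R I b hb => ⟨(hst1 V R I b hb).2.1, (hst1 V R I b hb).2.2⟩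
  -- the family
  obtain ⟨g', hg'⟩ : ∃ g', g' = P.g / (1 - P.g) := ⟨_, rfl⟩
  obtain ⟨n', hn'⟩ : ∃ n', n' = P.n * (1 - P.g) / (1 - 2 * P.g) := ⟨_, rfl⟩
  have hg'0 : 0 ≤ g' := by
    rw [hg']
    exact div_nonneg hg.le (by linarith)
  have hg'1 : g' ≤ 1 := by
    rw [hg', div_le_one (by linarith)]
    linarith
  obtain ⟨Fam, hFam⟩ : ∃ Fam : Finset E → Finset E → Finset E → Prop, Fam = fun R I A =>
      BB D g' n' P.t (P.eps (j + 1)) lam' zet' (P.kap (j + 1)) R I A := ⟨_, rfl⟩
  have hFmono : ∀ R I A B, A ⊆ B → Fam R I A → Fam R I B := by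
    intro R I A B hAB h
    rw [hFam] at h ⊢
    exact BB_mono hg'0 hg'1 hAB h
  obtain ⟨Ast, hAst⟩ : ∃ Ast : Finset E → Finset E → Finset E → Finset E → Prop,
      Ast = fun V H R I => Aj D P j V (R ∪ H) I ∧ Disjoint V I ∧
        Fam R I (Kf D P j V (R ∪ H) I) := ⟨_, rfl⟩
  obtain ⟨h, hh⟩ : ∃ h, h = s₁ * P.g := ⟨_, rfl⟩
  obtain ⟨r, hr⟩ : ∃ r, r = s₁ * (1 - P.g) := ⟨_, rfl⟩
  have hh0 : 0 < h := by rw [hh]; positivity
  have hr0 : 0 ≤ r := by
    rw [hr]
    exact mul_nonneg hs₁.le (by linarith)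
  have hsum5 : p + h + r + s₂ ≤ 1 := by
    rw [hh, hr]
    linarith
  have hph : p ≤ h := by rw [hh]; exact hpg
  obtain ⟨U, hU1, hU2⟩ := hJST E p h r s₂ hp hh0.le hr0 hs₂ hsum5 Fam hFmono
    (fun V H R I => Kf D P j V (R ∪ H) I) Ast (by
      intro V H R I hA
      rw [hAst] at hA
      exact ⟨hK _ _ _, hA.2.2⟩)
  -- the integrand after the split
  obtain ⟨W, hW⟩ : ∃ W : Finset E → Finset E → Finset E → Finset E → ℝ, W = fun V H R I =>
      ind (Aj D P j V (R ∪ H) I) * ind (¬ bb D P.n P.t (P.eps j) (P.lam j) (P.kap j) (R ∪ H) I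
        (core D P (R ∪ H) I j (Kf D P j V (R ∪ H) I)) H) := ⟨_, rfl⟩
  have un : ∀ {R H : Finset E}, H ⊆ R → R \ H ∪ H = R := fun hHR => sdiff_union_of_subset hHR
  have hsplitW := hSPLIT E p s₁ s₂ P.g W
  rw [← hh, ← hr] at hsplitW
  -- (0) not in the family of level `j`
  have h0 : P.zet j * PR (E := E) p s₁ s₂ (fun V R I => ind (∃ X ⊆ V, Bad D P R I j X)) ≤
      PR5 p h r s₂ W := by
    rw [← hsplitW, ← PR_mul]
    refine PR_mono hp.le hs₁.le hs₂ hsum fun V R I hVR hVI hRI => ?_
    have e : thin P.g R (fun H => W V H (R \ H) I) = ind (Aj D P j V R I) *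
        thin P.g R (fun H => ind (¬ bb D P.n P.t (P.eps j) (P.lam j) (P.kap j) R I
          (core D P R I j (Kf D P j V R I)) H)) := by
      rw [← thin_mul]
      refine thin_congr fun H hH => ?_
      rw [hW]
      simp only [un hH]
    rw [e]
    by_cases hA : Aj D P j V R I
    · have hb := (Kf_spec hA hVI).2.2
      unfold BBj BB at hb
      rw [not_le] at hb
      have e1 : thin P.g R (fun H => ind (¬ bb D P.n P.t (P.eps j) (P.lam j) (P.kap j) R I
          (core D P R I j (Kf D P j V R I)) H)) = 1 - thin P.g R (fun H =>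
          ind (bb D P.n P.t (P.eps j) (P.lam j) (P.kap j) R I
            (core D P R I j (Kf D P j V R I)) H)) := by
        simp only [ind_not]
        rw [thin_sub, thin_const]
      rw [e1]
      change P.zet j * ind (Aj D P j V R I) ≤ _
      rw [ind_pos hA]
      linarith
    · change P.zet j * ind (Aj D P j V R I) ≤ _
      rw [ind_neg hA]
      simp
  -- (1) the transfer to the smaller sample
  obtain ⟨W1, hW1⟩ : ∃ W1 : Finset E → Finset E → Finset E → Finset E → ℝ, W1 = fun V H R I =>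
      ind (Aj D P j V (R ∪ H) I) * ind (¬ Fam R I (Kf D P j V (R ∪ H) I)) := ⟨_, rfl⟩
  have h1 : PR5 p h r s₂ W1 ≤ (P.zet (j + 1) + P.lam (j + 1) / lam') / zet' := by
    have hs := hSPLIT E p s₁ s₂ P.g W1
    rw [← hh, ← hr] at hs
    rw [← hs]
    have hc : PR (E := E) p s₁ s₂ (fun _ _ _ => (P.zet (j + 1) + P.lam (j + 1) / lam') / zet') =
        (P.zet (j + 1) + P.lam (j + 1) / lam') / zet' := PR_const _ _ _ _
    rw [← hc]
    refine PR_mono hp.le hs₁.le hs₂ hsum fun V R I hVR hVI hRI => ?_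
    have e : thin P.g R (fun H => W1 V H (R \ H) I) = ind (Aj D P j V R I) *
        thin P.g R (fun H => ind (¬ BB D (P.g / (1 - P.g)) (P.n * (1 - P.g) / (1 - 2 * P.g)) P.t
          (P.eps (j + 1)) lam' zet' (P.kap (j + 1)) (R \ H) I (Kf D P j V R I))) := by
      rw [← thin_mul]
      refine thin_congr fun H hH => ?_
      rw [hW1, hFam, hg', hn']
      simp only [un hH]
    rw [e]
    by_cases hA : Aj D P j V R I
    · rw [ind_pos hA, one_mul]
      exact hMK E D P.g P.n P.t (P.eps (j + 1)) (P.lam (j + 1)) (P.zet (j + 1)) lam' zet'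
        (P.kap (j + 1)) hg.le (by linarith) hn.le (by nlinarith) ht0 ht1 hlam1 hzet1 hlam' hzet'
        R I _ (Kf_spec hA hVI).2.1
    · rw [ind_neg hA, zero_mul]
      positivity
  -- (2) many elements are needed
  obtain ⟨W2, hW2⟩ : ∃ W2 : Finset E → Finset E → Finset E → Finset E → ℝ, W2 = fun V H R I =>
      ind (Ast V H R I) * (h / p) ^ (U V H R I).card := ⟨_, rfl⟩
  have h2 : PR5 p h r s₂ W2 ≤ 1 := by
    have := hU2 (fun _ _ _ => 1) (fun _ _ _ => zero_le_one)
    rw [PR5_const] at this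
    rw [hW2]
    simpa only [mul_one] using this
  -- (3) few elements are needed
  obtain ⟨W3, hW3⟩ : ∃ W3 : Finset E → Finset E → Finset E → Finset E → ℝ, W3 = fun V H R I =>
      ind (Ast V H R I) * (h / p) ^ (U V H R I).card *
        (ind (Fam R I (H ∪ U V H R I)) * fl D P.n P.t (P.eps (j + 1)) R I (H ∪ U V H R I)) :=
    ⟨_, rfl⟩
  have hfl0 : ∀ e R I X, 0 ≤ fl D P.n P.t e R I X := fun e R I X =>
    thin_nonneg hn.le hn1 fun _ _ => ind_nonneg _
  have h3 : PR5 p h r s₂ W3 ≤ zet' + β + 16 ^ P.kap (j + 1) * lam' / β ^ 4 := by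
    have h31 := hU2 (fun X R I => ind (Fam R I X) * fl D P.n P.t (P.eps (j + 1)) R I X)
      (fun X R I => mul_nonneg (ind_nonneg _) (hfl0 _ _ _ _))
    have h32 := hQJ E D hD s₁ s₂ P.g P.n P.t (P.eps (j + 1)) lam' zet' β (P.kap (j + 1)) hs₁.le
      hs₂ (by linarith) hg.le hg4 hn hn4 hgn ht0 ht1 hlam'.le hzet'.le hβ
    have h33 := PR5_marg p h r s₂ (fun X R I => ind (Fam R I X) *
      fl D P.n P.t (P.eps (j + 1)) R I X)
    rw [hW3]
    refine h31.trans ?_
    rw [h33, hFam, hg', hn', hh, hr]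
    exact h32
  -- (4) the core
  obtain ⟨W4, hW4⟩ : ∃ W4 : Finset E → Finset E → Finset E → Finset E → ℝ, W4 = fun V H R I =>
      thin P.n R fun N => ind (∃ b ∈ Kf D P j V (R ∪ H) I \
        core D P (R ∪ H) I j (Kf D P j V (R ∪ H) I),
        rel D P.t (P.dl j) (P.kap j) I (st V (R ∪ H) I b) b (H ∪ N)) := ⟨_, rfl⟩
  have h4 : PR5 p h r s₂ W4 ≤ B := by
    have hs := hSPLIT E p s₁ s₂ P.g W4
    rw [← hh, ← hr] at hs
    rw [← hs]
    refine le_trans (le_of_eq ?_) hcoreB
    refine PR_congr fun V R I _ _ _ => thin_congr fun H hH => ?_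
    rw [hW4]
    simp only [un hH]
  -- pointwise
  have hpt : PR5 p h r s₂ W ≤ PR5 p h r s₂ (fun V H R I => W1 V H R I +
      (p / h) ^ (P.kap j + 1) * W2 V H R I + (1 / P.lam j) * (W3 V H R I + W4 V H R I)) := by
    refine PR5_mono hp.le hh0.le hr0 hs₂ hsum5 fun V H R I hVH hVR hVI hHR hHI hRI => ?_
    have hr1 : 1 ≤ h / p := (one_le_div hp).2 hph
    have n1 : 0 ≤ W1 V H R I := by
      rw [hW1]; exact mul_nonneg (ind_nonneg _) (ind_nonneg _)
    have n2 : 0 ≤ W2 V H R I := by
      rw [hW2]; exact mul_nonneg (ind_nonneg _) (by positivity)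
    have n3 : 0 ≤ W3 V H R I := by
      rw [hW3]
      exact mul_nonneg (mul_nonneg (ind_nonneg _) (by positivity))
        (mul_nonneg (ind_nonneg _) (hfl0 _ _ _ _))
    have n4 : 0 ≤ W4 V H R I := by
      rw [hW4]
      exact thin_nonneg hn.le hn1 fun _ _ => ind_nonneg _
    have n2' : 0 ≤ (p / h) ^ (P.kap j + 1) * W2 V H R I := mul_nonneg (by positivity) n2
    have n3' : 0 ≤ (1 / P.lam j) * (W3 V H R I + W4 V H R I) :=
      mul_nonneg (by positivity) (add_nonneg n3 n4)
    by_cases hA : Aj D P j V (R ∪ H) I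
    swap
    · have : W V H R I = 0 := by rw [hW]; simp only [ind_neg hA, zero_mul]
      rw [this]
      positivity
    have hW1' : W V H R I ≤ 1 := by
      rw [hW]
      simp only [ind_pos hA, one_mul]
      exact ind_le_one _
    by_cases hF : Fam R I (Kf D P j V (R ∪ H) I)
    swap
    · have : W1 V H R I = 1 := by rw [hW1]; simp only [ind_pos hA, ind_pos hF, one_mul]
      rw [this]
      linarith
    have hast : Ast V H R I := by rw [hAst]; exact ⟨hA, hVI, hF⟩
    obtain ⟨hUK, hUF⟩ := hU1 V H R I hVH hast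
    rcases Nat.lt_or_ge (P.kap j) (U V H R I).card with hc | hc
    · -- many
      have h5 : 1 ≤ (p / h) ^ (P.kap j + 1) * W2 V H R I := by
        rw [hW2]
        simp only [ind_pos hast, one_mul]
        have h6 : (h / p) ^ (P.kap j + 1) ≤ (h / p) ^ (U V H R I).card :=
          pow_le_pow_right₀ hr1 hc
        calc (1 : ℝ) = (p / h) ^ (P.kap j + 1) * (h / p) ^ (P.kap j + 1) := by
              rw [← mul_pow]
              have : p / h * (h / p) = 1 := by
                field_simp
              rw [this, one_pow]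
          _ ≤ _ := mul_le_mul_of_nonneg_left h6 (by positivity)
      linarith
    · -- few
      by_cases hbb : bb D P.n P.t (P.eps j) (P.lam j) (P.kap j) (R ∪ H) I
        (core D P (R ∪ H) I j (Kf D P j V (R ∪ H) I)) H
      · have : W V H R I = 0 := by
          rw [hW]
          simp only [ind_neg (not_not.2 hbb), mul_zero]
        rw [this]
        positivity
      -- the small set inside the core
      obtain ⟨C, hC⟩ : ∃ C, C = core D P (R ∪ H) I j (Kf D P j V (R ∪ H) I) := ⟨_, rfl⟩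
      have hfl : P.lam j < fl D P.n P.t (P.eps j) R I (U V H R I ∩ C ∪ H) := by
        by_contra hcon
        refine hbb ⟨U V H R I ∩ C, by rw [← hC]; exact inter_subset_right,
          (card_le_card inter_subset_left).trans hc, ?_⟩
        have e : (R ∪ H) \ H = R := by
          rw [union_sdiff_distrib, sdiff_self]
          simp only [union_empty, Finset.bot_eq_empty]
          exact sdiff_eq_self_of_disjoint hHR.symm
        rw [e]
        exact not_lt.1 hcon
      have hle : fl D P.n P.t (P.eps j) R I (U V H R I ∩ C ∪ H) ≤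
          fl D P.n P.t (P.eps (j + 1)) R I (H ∪ U V H R I) + W4 V H R I := by
        unfold fl
        rw [hW4]
        simp only
        rw [← thin_add]
        refine thin_mono hn.le hn1 fun N hN => ?_
        by_cases hrel : ∃ b ∈ Kf D P j V (R ∪ H) I \
            core D P (R ∪ H) I j (Kf D P j V (R ∪ H) I),
            rel D P.t (P.dl j) (P.kap j) I (st V (R ∪ H) I b) b (H ∪ N)
        · rw [ind_pos hrel]
          have := ind_nonneg (P.eps (j + 1) < psi D P.t I (H ∪ U V H R I ∪ N))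
          linarith [ind_le_one (P.eps j < psi D P.t I (U V H R I ∩ C ∪ H ∪ N))]
        · rw [ind_neg hrel, add_zero]
          refine ind_mono fun hlt => ?_
          have hKd : Disjoint (Kf D P j V (R ∪ H) I) (H ∪ N) := by
            rw [disjoint_union_right]
            exact ⟨disjoint_of_subset_left (hK _ _ _) hVH,
              disjoint_of_subset_left (hK _ _ _) (disjoint_of_subset_right hN hVR)⟩
          have hd := hst2 V (R ∪ H) I (U V H R I) hUK (H ∪ N) hKd hc (by
            intro b hb hr'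
            exact hrel ⟨b, hb, hr'⟩)
          rw [← hC] at hd
          have e1 : U V H R I ∩ C ∪ H ∪ N = U V H R I ∩ C ∪ (H ∪ N) := union_assoc _ _ _
          have e2 : H ∪ U V H R I ∪ N = U V H R I ∪ (H ∪ N) := by
            rw [union_comm H, union_assoc]
          rw [e1] at hlt
          rw [e2]
          linarith
      have h7 : fl D P.n P.t (P.eps (j + 1)) R I (H ∪ U V H R I) ≤ W3 V H R I := by
        rw [hW3]
        simp only [ind_pos hast, one_mul, ind_pos hUF]
        refine le_mul_of_one_le_left (hfl0 _ _ _ _) (one_le_pow₀ hr1)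
      have h8 : 1 ≤ (1 / P.lam j) * (W3 V H R I + W4 V H R I) := by
        rw [one_div, ← div_eq_inv_mul, one_le_div hlam0]
        linarith
      linarith
  have hsumW : PR5 p h r s₂ (fun V H R I => W1 V H R I +
      (p / h) ^ (P.kap j + 1) * W2 V H R I + (1 / P.lam j) * (W3 V H R I + W4 V H R I)) =
      PR5 p h r s₂ W1 + (p / h) ^ (P.kap j + 1) * PR5 p h r s₂ W2 +
        (1 / P.lam j) * (PR5 p h r s₂ W3 + PR5 p h r s₂ W4) := by
    rw [PR5_add p h r s₂ (fun V H R I => W1 V H R I + (p / h) ^ (P.kap j + 1) * W2 V H R I)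
      (fun V H R I => (1 / P.lam j) * (W3 V H R I + W4 V H R I)), PR5_add, PR5_mul, PR5_mul,
      PR5_add]
  rw [hsumW] at hpt
  have h9 : (p / h) ^ (P.kap j + 1) * PR5 p h r s₂ W2 ≤ (p / h) ^ (P.kap j + 1) :=
    mul_le_of_le_one_right (by positivity) h2
  have h10 : (1 / P.lam j) * (PR5 p h r s₂ W3 + PR5 p h r s₂ W4) ≤
      (zet' + β + 16 ^ P.kap (j + 1) * lam' / β ^ 4 + B) / P.lam j := by
    rw [one_div, ← div_eq_inv_mul]
    exact div_le_div_of_nonneg_right (add_le_add h3 h4) hlam0.le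
  rw [← hh]
  linarith

end Vale.Agent.P331.H109
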