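import Vale.Agent.P331.H316.Rows

/-!
# Tools for thinnings and exclusive labels
-/

set_option autoImplicit false
set_option linter.unusedSectionVars false
set_option linter.unusedVariables false

namespace Vale.Agent.P331.H109

open Finset Vale.Agent.P331.H489 Vale.Agent.P331.H316
open scoped Classical

section

variable {E : Type} [Fintype E]

theorem tw_nonneg {τ : ℝ} (h0 : 0 ≤ τ) (h1 : τ ≤ 1) (b : Bool) : 0 ≤ tw τ b := by
  unfold tw
  split_ifs
  · exact h0
  · linarith

theorem tw_sum (τ : ℝ) : ∑ b, tw τ b = 1 := by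
  rw [Fintype.sum_bool]
  simp [tw]

theorem thin_mono {τ : ℝ} (h0 : 0 ≤ τ) (h1 : τ ≤ 1) {S : Finset E} {F G : Finset E → ℝ}
    (h : ∀ H ⊆ S, F H ≤ G H) : thin τ S F ≤ thin τ S G :=
  EX_mono (fun _ b => tw_nonneg h0 h1 b) fun c => h _ (filter_subset _ _)

theorem thin_nonneg {τ : ℝ} (h0 : 0 ≤ τ) (h1 : τ ≤ 1) {S : Finset E} {F : Finset E → ℝ}
    (h : ∀ H ⊆ S, 0 ≤ F H) : 0 ≤ thin τ S F :=
  EX_nonneg (fun _ b => tw_nonneg h0 h1 b) fun c => h _ (filter_subset _ _)

theorem thin_congr {τ : ℝ} {S : Finset E} {F G : Finset E → ℝ}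
    (h : ∀ H ⊆ S, F H = G H) : thin τ S F = thin τ S G := by
  unfold thin
  congr 1
  funext c
  exact h _ (filter_subset _ _)

theorem thin_const (τ : ℝ) (S : Finset E) (c : ℝ) : thin τ S (fun _ => c) = c :=
  EX_one _ (fun _ => tw_sum τ) c

theorem thin_add (τ : ℝ) (S : Finset E) (F G : Finset E → ℝ) :
    thin τ S (fun H => F H + G H) = thin τ S F + thin τ S G := EX_add _ _ _

theorem thin_sub (τ : ℝ) (S : Finset E) (F G : Finset E → ℝ) :
    thin τ S (fun H => F H - G H) = thin τ S F - thin τ S G := EX_sub _ _ _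

theorem thin_mul (τ : ℝ) (S : Finset E) (c : ℝ) (F : Finset E → ℝ) :
    thin τ S (fun H => c * F H) = c * thin τ S F := EX_mul _ _ _

theorem ind_nonneg (P : Prop) : 0 ≤ ind P := by
  unfold ind
  split_ifs <;> norm_num

theorem ind_le_one (P : Prop) : ind P ≤ 1 := by
  unfold ind
  split_ifs <;> norm_num

theorem ind_mono {P Q : Prop} (h : P → Q) : ind P ≤ ind Q := by
  unfold ind
  by_cases hP : P
  · rw [if_pos hP, if_pos (h hP)]
  · rw [if_neg hP]
    split_ifs <;> norm_num

theorem ind_pos {P : Prop} (h : P) : ind P = 1 := if_pos h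

theorem ind_neg {P : Prop} (h : ¬ P) : ind P = 0 := if_neg h

theorem ind_not (P : Prop) : ind (¬ P) = 1 - ind P := by
  unfold ind
  by_cases h : P
  · simp [h]
  · simp [h]

theorem ind_or_le (P Q : Prop) : ind (P ∨ Q) ≤ ind P + ind Q := by
  have h1 := ind_nonneg P
  have h2 := ind_nonneg Q
  by_cases h : P
  · rw [ind_pos h]
    linarith [ind_le_one (P ∨ Q)]
  · by_cases h' : Q
    · rw [ind_pos h']
      linarith [ind_le_one (P ∨ Q)]
    · rw [ind_neg (by tauto)]
      linarith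

/-! ## exclusive labels -/

theorem w4_nonneg {p x s : ℝ} (hp : 0 ≤ p) (hx : 0 ≤ x) (hs : 0 ≤ s) (h1 : p + x + s ≤ 1) (l : L4) :
    0 ≤ w4 p x s l := by
  cases l <;> simp only [w4] <;> linarith

theorem w4_sum (p x s : ℝ) : ∑ l, w4 p x s l = 1 := by
  rw [sum_L4]
  simp only [w4]
  ring

theorem sum_L5 (f : L5 → ℝ) : ∑ l, f l = f .v + f .h + f .r + f .i + f .o := by
  have h : (univ : Finset L5) = {.v, .h, .r, .i, .o} := rfl
  rw [h, sum_insert (by decide), sum_insert (by decide), sum_insert (by decide),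
    sum_insert (by decide), sum_singleton]
  ring

theorem w5_nonneg {p h r s : ℝ} (hp : 0 ≤ p) (hh : 0 ≤ h) (hr : 0 ≤ r) (hs : 0 ≤ s)
    (h1 : p + h + r + s ≤ 1) (l : L5) : 0 ≤ w5' p h r s l := by
  cases l <;> simp only [w5'] <;> linarith

theorem w5_sum (p h r s : ℝ) : ∑ l, w5' p h r s l = 1 := by
  rw [sum_L5]
  simp only [w5']
  ring

theorem cls_disj {L : Type} (κ : E → L) {l l' : L} (h : l ≠ l') : Disjoint (cls κ l) (cls κ l') := by
  rw [disjoint_left]
  intro e he he'
  simp only [cls, mem_filter, mem_univ, true_and] at he he'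
  exact h (he.symm.trans he')

theorem PR_mono {p x s : ℝ} (hp : 0 ≤ p) (hx : 0 ≤ x) (hs : 0 ≤ s) (h1 : p + x + s ≤ 1)
    {F G : Finset E → Finset E → Finset E → ℝ}
    (h : ∀ V R I, Disjoint V R → Disjoint V I → Disjoint R I → F V R I ≤ G V R I) :
    PR p x s F ≤ PR p x s G :=
  EX_mono (fun _ l => w4_nonneg hp hx hs h1 l) fun κ =>
    h _ _ _ (cls_disj κ (by decide)) (cls_disj κ (by decide)) (cls_disj κ (by decide))

theorem PR_nonneg {p x s : ℝ} (hp : 0 ≤ p) (hx : 0 ≤ x) (hs : 0 ≤ s) (h1 : p + x + s ≤ 1)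
    {F : Finset E → Finset E → Finset E → ℝ} (h : ∀ V R I, 0 ≤ F V R I) : 0 ≤ PR p x s F :=
  EX_nonneg (fun _ l => w4_nonneg hp hx hs h1 l) fun κ => h _ _ _

theorem PR_const (p x s c : ℝ) : PR (E := E) p x s (fun _ _ _ => c) = c :=
  EX_one _ (fun _ => w4_sum p x s) c

theorem PR_add (p x s : ℝ) (F G : Finset E → Finset E → Finset E → ℝ) :
    PR p x s (fun V R I => F V R I + G V R I) = PR p x s F + PR p x s G := EX_add _ _ _

theorem PR_mul (p x s c : ℝ) (F : Finset E → Finset E → Finset E → ℝ) :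
    PR p x s (fun V R I => c * F V R I) = c * PR p x s F := EX_mul _ _ _

theorem PR_congr {p x s : ℝ} {F G : Finset E → Finset E → Finset E → ℝ}
    (h : ∀ V R I, Disjoint V R → Disjoint V I → Disjoint R I → F V R I = G V R I) :
    PR p x s F = PR p x s G := by
  unfold PR
  congr 1
  funext κ
  exact h _ _ _ (cls_disj κ (by decide)) (cls_disj κ (by decide)) (cls_disj κ (by decide))

theorem PR5_mono {p h r s : ℝ} (hp : 0 ≤ p) (hh : 0 ≤ h) (hr : 0 ≤ r) (hs : 0 ≤ s)
    (h1 : p + h + r + s ≤ 1) {F G : Finset E → Finset E → Finset E → Finset E → ℝ}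
    (hFG : ∀ V H R I, Disjoint V H → Disjoint V R → Disjoint V I → Disjoint H R → Disjoint H I →
      Disjoint R I → F V H R I ≤ G V H R I) : PR5 p h r s F ≤ PR5 p h r s G :=
  EX_mono (fun _ l => w5_nonneg hp hh hr hs h1 l) fun κ =>
    hFG _ _ _ _ (cls_disj κ (by decide)) (cls_disj κ (by decide)) (cls_disj κ (by decide))
      (cls_disj κ (by decide)) (cls_disj κ (by decide)) (cls_disj κ (by decide))

theorem PR5_const (p h r s c : ℝ) : PR5 (E := E) p h r s (fun _ _ _ _ => c) = c :=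
  EX_one _ (fun _ => w5_sum p h r s) c

theorem PR5_add (p h r s : ℝ) (F G : Finset E → Finset E → Finset E → Finset E → ℝ) :
    PR5 p h r s (fun V H R I => F V H R I + G V H R I) = PR5 p h r s F + PR5 p h r s G :=
  EX_add _ _ _

theorem PR5_mul (p h r s c : ℝ) (F : Finset E → Finset E → Finset E → Finset E → ℝ) :
    PR5 p h r s (fun V H R I => c * F V H R I) = c * PR5 p h r s F := EX_mul _ _ _

/-- forgetting the test set -/
def fo : L5 → L4
  | .v => .o
  | .h => .v
  | .r => .s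
  | .i => .i
  | .o => .o

theorem PR5_marg (p h r s : ℝ) (F : Finset E → Finset E → Finset E → ℝ) :
    PR5 p h r s (fun _ H R I => F H R I) = PR h r s F := by
  unfold PR5 PR
  have e : ∀ κ : E → L5, F (cls κ .h) (cls κ .r) (cls κ .i) =
      (fun κ' : E → L4 => F (cls κ' .v) (cls κ' .s) (cls κ' .i)) (fo ∘ κ) := by
    intro κ
    have e1 : cls (fo ∘ κ) .v = cls κ .h := by
      ext a
      simp only [cls, mem_filter, mem_univ, true_and, Function.comp]
      cases κ a <;> simp [fo]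
    have e2 : cls (fo ∘ κ) .s = cls κ .r := by
      ext a
      simp only [cls, mem_filter, mem_univ, true_and, Function.comp]
      cases κ a <;> simp [fo]
    have e3 : cls (fo ∘ κ) .i = cls κ .i := by
      ext a
      simp only [cls, mem_filter, mem_univ, true_and, Function.comp]
      cases κ a <;> simp [fo]
    simp only [e1, e2, e3]
  simp only [e]
  refine (EX_push fo _ (fun κ' : E → L4 => F (cls κ' .v) (cls κ' .s) (cls κ' .i))).trans ?_
  congr 1
  funext _ c
  rw [Finset.sum_filter, sum_L5]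
  cases c <;> simp [fo, w5', w4]
  ring

end

end Vale.Agent.P331.H109
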